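import Vale.Agent.P116.Stmt

/-!
Planar contracts for the proof of the circle-domain theorem.
-/

namespace Vale.P116

open Set Filter Topology

/-- The full statement. -/
def KoebeStmt : Prop :=
  ∀ G : Set Sph, IsDomain G → ∃ Ω : Set Sph, IsCircleDomain Ω ∧ ConfEquiv G Ω

/-- `f` is univalent off `K` and normalised by `f z - z → 0` at infinity. -/
def NormMap (K : Set ℂ) (f : ℂ → ℂ) : Prop :=
  DifferentiableOn ℂ f Kᶜ ∧ InjOn f Kᶜ ∧ Tendsto (fun z => f z - z) (cocompact ℂ) (𝓝 0)

/-- The closed axis-parallel square with centre `c` and half side `s` (a point when `s = 0`). -/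
def sq (c : ℂ) (s : ℝ) : Set ℂ := {z | |z.re - c.re| ≤ s ∧ |z.im - c.im| ≤ s}

/-- Every component of `K` is a point or a closed axis-parallel square. -/
def SquareComps (K : Set ℂ) : Prop :=
  ∀ w ∈ K, ∃ (c : ℂ) (s : ℝ), 0 ≤ s ∧ connectedComponentIn K w = sq c s

/-- Every component of `K` is a point or a closed disc. -/
def DiscComps (K : Set ℂ) : Prop :=
  ∀ w ∈ K, ∃ (c : ℂ) (r : ℝ), 0 ≤ r ∧ connectedComponentIn K w = Metric.closedBall c r

/-- Part A: every planar domain containing infinity is conformal to a domain of squares and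
points. -/
def PartA : Prop :=
  ∀ K : Set ℂ, IsCompact K → IsConnected Kᶜ → ∃ f : ℂ → ℂ, NormMap K f ∧ SquareComps (f '' Kᶜ)ᶜ

/-- Part B: every domain of squares and points is conformal to a circle domain. -/
def PartB : Prop :=
  ∀ K : Set ℂ, IsCompact K → IsConnected Kᶜ → SquareComps K →
    ∃ f : ℂ → ℂ, NormMap K f ∧ DiscComps (f '' Kᶜ)ᶜ

end Vale.P116
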