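import Vale.Agent.P116.Contracts

/-!
Reduction of the statement on the sphere to the two planar parts.
-/

namespace Vale.P116

open Set Filter Topology OnePoint

@[simp] lemma param_true (z : ℂ) : param true z = (z : Sph) := by simp [param]

lemma param_false_zero : param false 0 = (∞ : Sph) := by simp [param]

lemma param_false_ne {z : ℂ} (hz : z ≠ 0) : param false z = ((z⁻¹ : ℂ) : Sph) := by
  simp [param, hz]

lemma param_injective (b : Bool) : Function.Injective (param b) := by
  cases b
  · intro z w h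
    by_cases hz : z = 0 <;> by_cases hw : w = 0
    · rw [hz, hw]
    · rw [hz, param_false_zero, param_false_ne hw] at h
      exact absurd h (infty_ne_coe _)
    · rw [hw, param_false_zero, param_false_ne hz] at h
      exact absurd h (coe_ne_infty _)
    · rw [param_false_ne hz, param_false_ne hw] at h
      exact inv_injective (coe_injective h)
  · intro z w h
    simpa using h

lemma tendsto_inv_cocompact : Tendsto (fun z : ℂ => z⁻¹) (cocompact ℂ) (𝓝[≠] 0) := by
  rw [← Metric.cobounded_eq_cocompact]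
  exact tendsto_inv₀_cobounded'

lemma tendsto_inv_nhdsNE : Tendsto (fun z : ℂ => z⁻¹) (𝓝[≠] 0) (cocompact ℂ) := by
  rw [← Metric.cobounded_eq_cocompact]
  exact tendsto_inv₀_nhdsNE_zero

/-- The local parameters are open embeddings, in the form of an equation between filters. -/
lemma map_param_nhds (b : Bool) (z₀ : ℂ) : map (param b) (𝓝 z₀) = 𝓝 (param b z₀) := by
  cases b
  · by_cases h0 : z₀ = 0
    · subst h0
      rw [param_false_zero, nhds_infty_eq, coclosedCompact_eq_cocompact,
        ← nhdsNE_sup_pure (0 : ℂ), Filter.map_sup, map_pure, param_false_zero]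
      congr 1
      have h1 : map (param false) (𝓝[≠] (0 : ℂ)) =
          map (fun z : ℂ => ((z⁻¹ : ℂ) : Sph)) (𝓝[≠] (0 : ℂ)) := by
        apply Filter.map_congr
        filter_upwards [self_mem_nhdsWithin] with z hz using param_false_ne hz
      have h2 : map (fun z : ℂ => z⁻¹) (𝓝[≠] (0 : ℂ)) = cocompact ℂ := by
        apply le_antisymm tendsto_inv_nhdsNE
        have h3 := map_mono (m := fun z : ℂ => z⁻¹) tendsto_inv_cocompact
        rw [Filter.map_map] at h3
        simpa [Function.comp_def] using h3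
      rw [h1, ← h2, Filter.map_map]
      rfl
    · have h1 : map (param false) (𝓝 z₀) = map (fun z : ℂ => ((z⁻¹ : ℂ) : Sph)) (𝓝 z₀) := by
        apply Filter.map_congr
        filter_upwards [isOpen_ne.mem_nhds h0] with z hz using param_false_ne hz
      have h2 : map (fun z : ℂ => z⁻¹) (𝓝 z₀) = 𝓝 z₀⁻¹ := by
        apply le_antisymm (continuousAt_inv₀ h0)
        have h3 := map_mono (m := fun z : ℂ => z⁻¹) (continuousAt_inv₀ (inv_ne_zero h0))
        rw [Filter.map_map] at h3
        simpa [Function.comp_def] using h3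
      rw [h1, param_false_ne h0, nhds_coe_eq, ← h2, Filter.map_map]
      rfl
  · rw [param_true, nhds_coe_eq]
    apply Filter.map_congr
    exact Eventually.of_forall fun z => param_true z

/-- Change of chart. -/
lemma param_trans {b c : Bool} {z w : ℂ} (h : param b z = param c w) :
    ∃ τ : ℂ → ℂ, AnalyticAt ℂ τ z ∧ τ z = w ∧ ∀ᶠ x in 𝓝 z, param b x = param c (τ x) := by
  by_cases hbc : b = c
  · subst hbc
    exact ⟨id, analyticAt_id, param_injective b h, Eventually.of_forall fun _ => rfl⟩
  · have hz : z ≠ 0 ∧ z⁻¹ = w := by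
      cases b <;> cases c
      · exact absurd rfl hbc
      · by_cases hz : z = 0
        · rw [hz, param_false_zero, param_true] at h
          exact absurd h (infty_ne_coe _)
        · rw [param_false_ne hz, param_true] at h
          exact ⟨hz, coe_injective h⟩
      · by_cases hw : w = 0
        · rw [hw, param_false_zero, param_true] at h
          exact absurd h (coe_ne_infty _)
        · rw [param_false_ne hw, param_true] at h
          have := coe_injective h
          exact ⟨this ▸ inv_ne_zero hw, by rw [this, inv_inv]⟩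
      · exact absurd rfl hbc
    refine ⟨fun x => x⁻¹, analyticAt_id.inv hz.1, hz.2, ?_⟩
    filter_upwards [isOpen_ne.mem_nhds hz.1] with x hx
    cases b <;> cases c
    · exact absurd rfl hbc
    · rw [param_false_ne hx, param_true]
    · rw [param_false_ne (inv_ne_zero hx), param_true, inv_inv]
    · exact absurd rfl hbc

lemma HoloAt.continuousAt {f : Sph → Sph} {p : Sph} (h : HoloAt f p) : ContinuousAt f p := by
  obtain ⟨b, c, z₀, g, rfl, hg, he⟩ := h
  rw [ContinuousAt, ← map_param_nhds, he.self_of_nhds, ← map_param_nhds, tendsto_map'_iff]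
  exact (tendsto_map.comp hg.continuousAt).congr' (he.mono fun z hz => hz.symm)

lemma HoloAt.comp {f g : Sph → Sph} {p : Sph} (hg : HoloAt g (f p)) (hf : HoloAt f p) :
    HoloAt (g ∘ f) p := by
  obtain ⟨b, c, z₀, u, rfl, hu, he⟩ := hf
  obtain ⟨b', c', w₀, v, hw, hv, he'⟩ := hg
  rw [he.self_of_nhds] at hw
  obtain ⟨τ, hτ, hτw, hτe⟩ := param_trans hw.symm
  have hτu : AnalyticAt ℂ (τ ∘ u) z₀ := hτ.comp hu
  refine ⟨b, c', z₀, v ∘ τ ∘ u, rfl, AnalyticAt.comp (by simpa [hτw] using hv) hτu, ?_⟩
  have h1 : Tendsto (τ ∘ u) (𝓝 z₀) (𝓝 w₀) := by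
    have := hτu.continuousAt
    rw [ContinuousAt] at this
    simpa [hτw] using this
  filter_upwards [he, hu.continuousAt.eventually hτe, h1.eventually he'] with z h2 h3 h4
  simp only [Function.comp_apply] at h4 ⊢
  rw [h2, h3, h4]

/-- Open mapping for injective holomorphic maps of the sphere. -/
lemma HoloAt.nhds_le {f : Sph → Sph} {p : Sph} (h : HoloAt f p) {G : Set Sph} (hG : G ∈ 𝓝 p)
    (hi : InjOn f G) : 𝓝 (f p) ≤ map f (𝓝 p) := by
  obtain ⟨b, c, z₀, g, rfl, hg, he⟩ := h
  have hG' : ∀ᶠ z in 𝓝 z₀, param b z ∈ G := by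
    rw [← map_param_nhds] at hG
    exact hG
  rcases hg.eventually_constant_or_nhds_le_map_nhds with hc | ho
  · exfalso
    have h1 : ∀ᶠ z in 𝓝 z₀, z = z₀ := by
      filter_upwards [hc, he, hG'] with z h1 h2 h3
      apply param_injective b
      apply hi h3 hG'.self_of_nhds
      rw [h2, h1, he.self_of_nhds]
    have h2 : ∀ᶠ z in 𝓝[≠] z₀, False := by
      filter_upwards [nhdsWithin_le_nhds h1, self_mem_nhdsWithin] with z h3 h4 using h4 h3
    exact (eventually_false_iff_eq_bot.1 h2 ▸ (inferInstance : (𝓝[≠] z₀).NeBot)).ne rfl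
  · rw [he.self_of_nhds, ← map_param_nhds, ← map_param_nhds, Filter.map_map]
    have h1 : map (f ∘ param b) (𝓝 z₀) = map (param c ∘ g) (𝓝 z₀) := Filter.map_congr he
    rw [h1, ← Filter.map_map]
    exact map_mono ho

lemma IsDomain.image {G : Set Sph} (hG : IsDomain G) {f : Sph → Sph}
    (hf : ∀ p ∈ G, HoloAt f p) (hi : InjOn f G) : IsDomain (f '' G) := by
  refine ⟨?_, hG.2.image f fun p hp => (hf p hp).continuousAt.continuousWithinAt⟩
  rw [isOpen_iff_mem_nhds]
  rintro _ ⟨p, hp, rfl⟩
  exact (hf p hp).nhds_le (hG.1.mem_nhds hp) hi (image_mem_map (hG.1.mem_nhds hp))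

lemma ConfEquiv.trans {G H I : Set Sph} (h1 : ConfEquiv G H) (h2 : ConfEquiv H I) :
    ConfEquiv G I := by
  obtain ⟨f, hf, hf'⟩ := h1
  obtain ⟨g, hg, hg'⟩ := h2
  exact ⟨g ∘ f, hg.comp hf, fun p hp => (hg' _ (hf.mapsTo hp)).comp (hf' p hp)⟩

lemma confEquiv_image {G : Set Sph} {f : Sph → Sph} (hf : ∀ p ∈ G, HoloAt f p)
    (hi : InjOn f G) : ConfEquiv G (f '' G) := ⟨f, hi.bijOn_image, hf⟩

/-- The inversion of the sphere. -/
noncomputable def inv (p : Sph) : Sph := OnePoint.elim p ((0 : ℂ) : Sph) (param false)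

lemma inv_param_true (z : ℂ) : inv (param true z) = param false z := by
  rw [param_true]; rfl

lemma inv_param_false (z : ℂ) : inv (param false z) = param true z := by
  by_cases hz : z = 0
  · rw [hz, param_false_zero, param_true]; rfl
  · rw [param_false_ne hz, param_true]
    change param false z⁻¹ = _
    rw [param_false_ne (inv_ne_zero hz), inv_inv]

lemma inv_inv' (p : Sph) : inv (inv p) = p := by
  induction p using OnePoint.rec with
  | infty => rw [← param_false_zero, inv_param_false, inv_param_true]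
  | coe z => rw [← param_true, inv_param_true, inv_param_false]

lemma holoAt_inv (p : Sph) : HoloAt inv p := by
  induction p using OnePoint.rec with
  | infty =>
    exact ⟨false, true, 0, id, param_false_zero, analyticAt_id,
      Eventually.of_forall inv_param_false⟩
  | coe z =>
    exact ⟨true, false, z, id, param_true z, analyticAt_id, Eventually.of_forall inv_param_true⟩

/-- A function of the form `z + o(1)`, more generally `z + a + o(1)`, extends holomorphically to
infinity. -/
lemma holoAt_map_infty {f : ℂ → ℂ} {a : ℂ} (hd : ∀ᶠ z in cocompact ℂ, DifferentiableAt ℂ f z)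
    (ht : Tendsto (fun z => f z - z) (cocompact ℂ) (𝓝 a)) : HoloAt (OnePoint.map f) ∞ := by
  classical
  set h : ℂ → ℂ := Function.update (fun z => f z⁻¹ - z⁻¹) 0 a with hh
  have hne : ∀ z : ℂ, z ≠ 0 → h z = f z⁻¹ - z⁻¹ := fun z hz => Function.update_of_ne hz _ _
  have hc : ContinuousAt h 0 := by
    rw [hh, continuousAt_update_same]
    exact ht.comp tendsto_inv_nhdsNE
  have han : AnalyticAt ℂ h 0 := by
    apply Complex.analyticAt_of_differentiable_on_punctured_nhds_of_continuousAt _ hc
    filter_upwards [tendsto_inv_nhdsNE.eventually hd, self_mem_nhdsWithin] with z hz hz0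
    have hz0' : z ≠ 0 := hz0
    have h1 : DifferentiableAt ℂ (fun z : ℂ => f z⁻¹ - z⁻¹) z :=
      (hz.comp z (differentiableAt_inv hz0')).sub (differentiableAt_inv hz0')
    apply h1.congr_of_eventuallyEq
    filter_upwards [isOpen_ne.mem_nhds hz0'] with x hx using hne x hx
  have hden : AnalyticAt ℂ (fun z => 1 + z * h z) 0 := analyticAt_const.add (analyticAt_id.mul han)
  have hden0 : (fun z => 1 + z * h z) 0 ≠ 0 := by simp
  refine ⟨false, false, 0, fun z => z / (1 + z * h z), param_false_zero,
    analyticAt_id.div hden hden0, ?_⟩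
  filter_upwards [hden.continuousAt.eventually_ne hden0] with z hz
  by_cases hz0 : z = 0
  · subst hz0
    simp [param_false_zero]
  · rw [param_false_ne hz0, param_false_ne (div_ne_zero hz0 hz), OnePoint.map_some, inv_div,
      hne z hz0]
    congr 1
    field_simp
    ring

lemma holoAt_map_coe {f : ℂ → ℂ} {z : ℂ} (hf : AnalyticAt ℂ f z) :
    HoloAt (OnePoint.map f) (z : Sph) :=
  ⟨true, true, z, f, param_true z, hf, Eventually.of_forall fun x => by simp⟩

/-- Every domain is equivalent to a domain containing infinity. -/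
lemma exists_infty_mem {G : Set Sph} (hG : IsDomain G) :
    ∃ H : Set Sph, IsDomain H ∧ ∞ ∈ H ∧ ConfEquiv G H := by
  obtain ⟨p, hp⟩ := hG.2.nonempty
  induction p using OnePoint.rec with
  | infty =>
    refine ⟨G, hG, hp, id, bijOn_id G, fun p _ => ?_⟩
    have := (holoAt_inv (inv p)).comp (holoAt_inv p)
    have h2 : inv ∘ inv = id := funext inv_inv'
    rwa [h2] at this
  | coe a =>
    set T : Sph → Sph := OnePoint.map fun z : ℂ => z - a with hT
    have hTh : ∀ p, HoloAt T p := by
      intro p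
      induction p using OnePoint.rec with
      | infty =>
        apply holoAt_map_infty (a := -a)
        · exact Eventually.of_forall fun z => by fun_prop
        · simp
      | coe z => exact holoAt_map_coe (by fun_prop)
    have hTi : Function.Injective T := by
      intro p q h
      induction p using OnePoint.rec <;> induction q using OnePoint.rec
      · rfl
      · exact absurd h (infty_ne_coe _)
      · exact absurd h (coe_ne_infty _)
      · have := coe_injective h
        simp only [sub_left_inj] at this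
        rw [this]
    have hi : InjOn (inv ∘ T) G :=
      ((Function.LeftInverse.injective inv_inv').comp hTi).injOn
    have hh : ∀ p ∈ G, HoloAt (inv ∘ T) p := fun p _ => (holoAt_inv _).comp (hTh p)
    refine ⟨_, hG.image hh hi, ⟨a, hp, ?_⟩, confEquiv_image hh hi⟩
    simp only [Function.comp_apply, hT, OnePoint.map_some, sub_self]
    rw [← param_true, inv_param_true, param_false_zero]

lemma isPreconnected_compl_closedBall (R : ℝ) (hR : 0 ≤ R) :
    IsPreconnected (Metric.closedBall (0 : ℂ) R)ᶜ := by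
  have h1 : (Metric.closedBall (0 : ℂ) R)ᶜ =
      (fun q : ℝ × ℝ => (q.1 : ℂ) * Complex.exp (q.2 * Complex.I)) '' (Ioi R ×ˢ univ) := by
    ext z
    simp only [mem_compl_iff, mem_closedBall_zero_iff, not_le, mem_image, mem_prod, mem_Ioi,
      mem_univ, and_true]
    constructor
    · intro hz
      exact ⟨(‖z‖, z.arg), hz, Complex.norm_mul_exp_arg_mul_I z⟩
    · rintro ⟨q, hq, rfl⟩
      rw [norm_mul, Complex.norm_exp_ofReal_mul_I, mul_one, Complex.norm_real, Real.norm_eq_abs,
        abs_of_nonneg (hR.trans hq.le)]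
      exact hq
  rw [h1]
  exact (isPreconnected_Ioi.prod isPreconnected_univ).image _ (by fun_prop)

lemma IsDomain.isCompact_compl {G : Set Sph} (hG : IsDomain G) (h : ∞ ∈ G) :
    IsCompact ((↑) ⁻¹' G : Set ℂ)ᶜ := ((isOpen_iff_of_mem h).1 hG.1).2

/-- Removing the point at infinity keeps a domain connected. -/
lemma IsDomain.isConnected_preimage {G : Set Sph} (hG : IsDomain G) (h : ∞ ∈ G) :
    IsConnected ((↑) ⁻¹' G : Set ℂ) := by
  obtain ⟨R, hR0, hR⟩ := (hG.isCompact_compl h).isBounded.subset_closedBall_lt 0 0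
  have hE : (Metric.closedBall (0 : ℂ) R)ᶜ ⊆ (↑) ⁻¹' G := compl_subset_comm.1 hR
  have hEc := isPreconnected_compl_closedBall R hR0.le
  have hne : ((Metric.closedBall (0 : ℂ) R)ᶜ).Nonempty :=
    ⟨(R + 1 : ℝ), by
      simp only [mem_compl_iff, mem_closedBall_zero_iff, not_le, Complex.norm_real,
        Real.norm_eq_abs]
      rw [abs_of_pos (by linarith)]; linarith⟩
  refine ⟨hne.mono hE, ?_⟩
  have key : ∀ u v : Set ℂ, IsOpen u → IsOpen v → (↑) ⁻¹' G ⊆ u ∪ v →
      (((↑) ⁻¹' G : Set ℂ) ∩ v).Nonempty → (Metric.closedBall (0 : ℂ) R)ᶜ ⊆ u →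
      (((↑) ⁻¹' G : Set ℂ) ∩ (u ∩ v)).Nonempty := by
    intro u v hu hv hc hvn hEu
    have hu' : IsOpen (((↑) '' u : Set Sph) ∪ {∞}) := by
      rw [isOpen_iff_of_mem (by simp)]
      have : ((↑) ⁻¹' (((↑) '' u : Set Sph) ∪ {∞}) : Set ℂ) = u := by
        rw [preimage_union, coe_preimage_infty, union_empty, preimage_image_eq _ coe_injective]
      rw [this]
      exact ⟨hu.isClosed_compl, (isCompact_closedBall 0 R).of_isClosed_subset hu.isClosed_compl
        (compl_subset_comm.1 hEu)⟩
    have hcov : G ⊆ (((↑) '' u : Set Sph) ∪ {∞}) ∪ (↑) '' v := by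
      intro p hp
      induction p using OnePoint.rec with
      | infty => simp
      | coe z =>
        rcases hc hp with h1 | h1
        · exact Or.inl (Or.inl ⟨z, h1, rfl⟩)
        · exact Or.inr ⟨z, h1, rfl⟩
    obtain ⟨z, hz1, hz2⟩ := hvn
    obtain ⟨p, hp1, hp2, w, hw, rfl⟩ := hG.2.isPreconnected _ _ hu' (isOpen_image_coe.2 hv) hcov
      ⟨∞, h, by simp⟩ ⟨z, hz1, z, hz2, rfl⟩
    rcases hp2 with ⟨w', hw', he⟩ | h3
    · rw [coe_injective he] at hw'
      exact ⟨w, hp1, hw', hw⟩
    · exact absurd h3 (coe_ne_infty _)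
  intro u v hu hv hc hun hvn
  by_contra hcon
  have hdis : (Metric.closedBall (0 : ℂ) R)ᶜ ⊆ u ∨ (Metric.closedBall (0 : ℂ) R)ᶜ ⊆ v := by
    by_contra h3
    rw [not_or, not_subset, not_subset] at h3
    obtain ⟨⟨x, hx, hxu⟩, y, hy, hyv⟩ := h3
    obtain ⟨t, ht, htuv⟩ := hEc u v hu hv (hE.trans hc) ⟨y, hy, (hc (hE hy)).resolve_right hyv⟩
      ⟨x, hx, (hc (hE hx)).resolve_left hxu⟩
    exact hcon ⟨t, hE ht, htuv⟩
  rcases hdis with h1 | h1
  · exact hcon (key u v hu hv hc hvn h1)
  · have := key v u hv hu (by rwa [union_comm]) hun h1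
    rw [inter_comm v u] at this
    exact hcon this

/-- One normalised planar step, read on the sphere. -/
lemma step {G : Set Sph} (hG : IsDomain G) (h : ∞ ∈ G) {f : ℂ → ℂ}
    (hf : NormMap ((↑) ⁻¹' G : Set ℂ)ᶜ f) :
    ∃ H : Set Sph, IsDomain H ∧ ∞ ∈ H ∧ ConfEquiv G H ∧
      ((↑) ⁻¹' H : Set ℂ) = f '' (((↑) ⁻¹' G : Set ℂ)ᶜ)ᶜ := by
  obtain ⟨hd, hi, ht⟩ := hf
  have hK := hG.isCompact_compl h
  rw [compl_compl] at hd hi ⊢
  have ho : IsOpen ((↑) ⁻¹' G : Set ℂ) := hG.1.preimage continuous_coe
  have hh : ∀ p ∈ G, HoloAt (OnePoint.map f) p := by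
    intro p hp
    induction p using OnePoint.rec with
    | infty =>
      apply holoAt_map_infty _ ht
      filter_upwards [hK.compl_mem_cocompact] with z hz
      rw [compl_compl] at hz
      exact hd.differentiableAt (ho.mem_nhds hz)
    | coe z => exact holoAt_map_coe (hd.analyticAt (ho.mem_nhds hp))
  have hi' : InjOn (OnePoint.map f) G := by
    intro p hp q hq he
    induction p using OnePoint.rec <;> induction q using OnePoint.rec
    · rfl
    · exact absurd he (infty_ne_coe _)
    · exact absurd he (coe_ne_infty _)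
    · rw [hi hp hq (coe_injective he)]
  refine ⟨_, hG.image hh hi', ⟨∞, h, rfl⟩, confEquiv_image hh hi', ?_⟩
  ext w
  constructor
  · rintro ⟨p, hp, he⟩
    induction p using OnePoint.rec with
    | infty => exact absurd he (infty_ne_coe _)
    | coe z => exact ⟨z, hp, coe_injective he⟩
  · rintro ⟨z, hz, rfl⟩
    exact ⟨z, hz, rfl⟩

lemma connectedComponentIn_coe (K : Set ℂ) {w : ℂ} (hw : w ∈ K) :
    connectedComponentIn ((↑) '' K : Set Sph) w = (↑) '' connectedComponentIn K w := by
  apply Subset.antisymm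
  · set C := connectedComponentIn ((↑) '' K : Set Sph) w with hC
    have h1 : C ⊆ (↑) '' K := connectedComponentIn_subset _ _
    have h2 : C = (↑) '' ((↑) ⁻¹' C : Set ℂ) :=
      (image_preimage_eq_of_subset (h1.trans (image_subset_range _ _))).symm
    have h3 : IsPreconnected ((↑) ⁻¹' C : Set ℂ) := by
      rw [← isOpenEmbedding_coe.isInducing.isPreconnected_image, ← h2]
      exact isPreconnected_connectedComponentIn
    rw [h2]
    apply image_mono
    apply h3.subset_connectedComponentIn
    · exact mem_connectedComponentIn (mem_image_of_mem _ hw)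
    · intro z hz
      obtain ⟨z', hz', he⟩ := h1 hz
      rwa [← coe_injective he]
  · exact (continuous_coe.continuousOn).image_connectedComponentIn_subset hw

lemma isRoundDisk_closedBall (c : ℂ) {r : ℝ} (hr : 0 < r) :
    IsRoundDisk ((↑) '' Metric.closedBall c r) := by
  refine ⟨r, c, 0, 1, by simpa using hr.ne', ?_⟩
  rw [image_image]
  have h1 : ∀ z : ℂ, mobius r c 0 1 (z : Sph) = ((r * z + c : ℂ) : Sph) := by
    intro z; simp [mobius]
  simp only [h1]
  rw [← image_image (g := OnePoint.some) (f := fun z : ℂ => (r : ℂ) * z + c)]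
  congr 1
  ext w
  simp only [Metric.mem_closedBall, mem_image, dist_eq_norm, sub_zero]
  constructor
  · intro hw
    refine ⟨(w - c) / r, ?_, ?_⟩
    · rw [norm_div, Complex.norm_real, Real.norm_eq_abs, abs_of_pos hr, div_le_one hr]
      exact hw
    · have : (r : ℂ) ≠ 0 := by exact_mod_cast hr.ne'
      field_simp
      ring
  · rintro ⟨z, hz, rfl⟩
    rw [add_sub_cancel_right, norm_mul, Complex.norm_real, Real.norm_eq_abs, abs_of_pos hr]
    nlinarith [norm_nonneg z]

lemma isCircleDomain_of {H : Set Sph} (hH : IsDomain H) (h : ∞ ∈ H)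
    (hd : DiscComps ((↑) ⁻¹' H : Set ℂ)ᶜ) : IsCircleDomain H := by
  refine ⟨hH, ?_⟩
  have h1 : Hᶜ = (↑) '' ((↑) ⁻¹' H : Set ℂ)ᶜ := by
    ext p
    induction p using OnePoint.rec with
    | infty => simp [h]
    | coe z => simp
  intro p hp
  rw [h1] at hp ⊢
  obtain ⟨w, hw, rfl⟩ := hp
  rw [connectedComponentIn_coe _ hw]
  obtain ⟨c, r, hr, he⟩ := hd w hw
  rw [he]
  rcases hr.eq_or_lt with h0 | h0
  · left
    exact ⟨c, by rw [← h0, Metric.closedBall_zero, image_singleton]⟩
  · exact Or.inr (isRoundDisk_closedBall c h0)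

/-- The domain of the sphere attached to a planar compact set. -/
lemma isDomain_compl_image {K : Set ℂ} (hK : IsCompact K) (hc : IsConnected Kᶜ) :
    IsDomain ((↑) '' K : Set Sph)ᶜ := by
  refine ⟨isOpen_compl_image_coe.2 ⟨hK.isClosed, hK⟩, ?_⟩
  have h1 : IsConnected ((↑) '' Kᶜ : Set Sph) := hc.image _ continuous_coe.continuousOn
  apply h1.subset_closure
  · rw [compl_image_coe]; exact subset_union_left
  · rw [compl_image_coe]
    apply union_subset subset_closure
    rintro _ rfl
    have h2 : Tendsto ((↑) : ℂ → Sph) (cocompact ℂ) (𝓝 ∞) := by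
      rw [← coclosedCompact_eq_cocompact]; exact tendsto_coe_infty
    apply mem_closure_of_tendsto h2
    filter_upwards [hK.compl_mem_cocompact] with z hz using mem_image_of_mem _ hz

/-- The image of the complement under a normalised map has compact complement and is
connected and open. -/
lemma NormMap.image_props {K : Set ℂ} (hK : IsCompact K) (hc : IsConnected Kᶜ) {f : ℂ → ℂ}
    (hf : NormMap K f) : IsCompact (f '' Kᶜ)ᶜ ∧ IsConnected (f '' Kᶜ) ∧ IsOpen (f '' Kᶜ) := by
  have hG := isDomain_compl_image hK hc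
  have hi : ∞ ∈ ((↑) '' K : Set Sph)ᶜ := infty_notMem_image_coe
  have hp : ((↑) ⁻¹' ((↑) '' K : Set Sph)ᶜ : Set ℂ)ᶜ = K := by
    rw [preimage_compl, compl_compl, preimage_image_eq _ coe_injective]
  obtain ⟨H, h1, h2, -, h4⟩ := step hG hi (f := f) (by rwa [hp])
  rw [hp] at h4
  rw [← h4]
  exact ⟨h1.isCompact_compl h2, h1.isConnected_preimage h2, h1.1.preimage continuous_coe⟩

/-- The two planar parts give the theorem. -/
theorem glue (hA : PartA) (hB : PartB) : KoebeStmt := by
  intro G hG
  obtain ⟨H₀, h₀, i₀, e₀⟩ := exists_infty_mem hG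
  obtain ⟨f₁, hf₁, hs⟩ := hA _ (h₀.isCompact_compl i₀)
    (by rw [compl_compl]; exact h₀.isConnected_preimage i₀)
  obtain ⟨H₁, h₁, i₁, e₁, q₁⟩ := step h₀ i₀ hf₁
  rw [← q₁] at hs
  obtain ⟨f₂, hf₂, hd⟩ := hB _ (h₁.isCompact_compl i₁)
    (by rw [compl_compl]; exact h₁.isConnected_preimage i₁) hs
  obtain ⟨H₂, h₂, i₂, e₂, q₂⟩ := step h₁ i₁ hf₂
  rw [← q₂] at hd
  exact ⟨H₂, isCircleDomain_of h₂ i₂ hd, e₀.trans (e₁.trans e₂)⟩

end Vale.P116
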