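import Mathlib

/-!
Statement of the circle-domain conjecture of Koebe on the Riemann sphere.
-/

namespace Vale.P116

open Set Filter Topology

/-- The Riemann sphere, the one-point compactification of the complex plane. -/
abbrev Sph : Type := OnePoint ℂ

/-- The Moebius map `z ↦ (a z + b) / (c z + d)` of the sphere, with the usual conventions
at the pole and at infinity. -/
noncomputable def mobius (a b c d : ℂ) (p : Sph) : Sph :=
  OnePoint.elim p
    (if c = 0 then OnePoint.infty else OnePoint.some (a / c))
    (fun z => if c * z + d = 0 then OnePoint.infty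
      else OnePoint.some ((a * z + b) / (c * z + d)))

/-- A closed round disk: the image of the closed unit disk under a Moebius transformation. -/
def IsRoundDisk (D : Set Sph) : Prop :=
  ∃ a b c d : ℂ, a * d - b * c ≠ 0 ∧
    D = mobius a b c d '' (OnePoint.some '' Metric.closedBall (0 : ℂ) 1)

/-- A domain: a nonempty connected open subset of the sphere. -/
def IsDomain (G : Set Sph) : Prop := IsOpen G ∧ IsConnected G

/-- A circle domain: each complementary component is a point or a closed round disk. -/
def IsCircleDomain (Ω : Set Sph) : Prop :=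
  IsDomain Ω ∧ ∀ p ∈ Ωᶜ,
    (∃ q : Sph, connectedComponentIn Ωᶜ p = {q}) ∨ IsRoundDisk (connectedComponentIn Ωᶜ p)

/-- The two standard local parameters of the sphere: `z ↦ z` and `z ↦ 1 / z` (with `0 ↦ ∞`). -/
noncomputable def param (b : Bool) (z : ℂ) : Sph :=
  if b then OnePoint.some z
  else if z = 0 then OnePoint.infty else OnePoint.some z⁻¹

/-- `f` is holomorphic at `p` in the standard charts: near `p`, read in a standard chart at `p`
and a standard chart at `f p`, it is an analytic function. -/
def HoloAt (f : Sph → Sph) (p : Sph) : Prop :=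
  ∃ (b c : Bool) (z₀ : ℂ) (g : ℂ → ℂ), param b z₀ = p ∧ AnalyticAt ℂ g z₀ ∧
    ∀ᶠ z in 𝓝 z₀, f (param b z) = param c (g z)

/-- Conformal equivalence: a bijection from `G` onto `Ω` holomorphic at every point of `G`. -/
def ConfEquiv (G Ω : Set Sph) : Prop :=
  ∃ f : Sph → Sph, BijOn f G Ω ∧ ∀ p ∈ G, HoloAt f p

end Vale.P116
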